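import Vale.Agent.H88.CT.Abstract
import Vale.Agent.H88.CT.Defs

/-!
Unit switches inside a `2 x 3` block of a contingency table: parametrisation of the
`2 x 2` block classes by an interval, the interval coupling, and the Lipschitz contraction
of the mean of the three block averages along unit switches.
-/

namespace Vale.Agent.H17.CT

open Finset Vale.Agent.H90 Vale.Agent.H88.CT

variable {m n : ℕ} {r : Fin m → ℕ} {c : Fin n → ℕ}

/-! ### The interval coupling -/

theorem interval_coupling (k : ℕ) (hk : 0 < k) (G G' : ℕ → ℝ) (L : ℝ)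
    (h1 : ∀ s, s < k → |G s - G' s| ≤ L) (h2 : ∀ s, s < k → |G s - G' (s + 1)| ≤ L) :
    |(∑ s ∈ range k, G s) / (k : ℝ) - (∑ s ∈ range (k + 1), G' s) / ((k : ℝ) + 1)| ≤ L := by
  have hkR : (0 : ℝ) < k := by exact_mod_cast hk
  have e1 : ∑ s ∈ range k, ((k : ℝ) - s) * G' s + ∑ s ∈ range k, ((s : ℝ) + 1) * G' (s + 1)
      = (k : ℝ) * ∑ s ∈ range (k + 1), G' s := by
    have a1 : ∑ s ∈ range k, ((k : ℝ) - s) * G' s
        = ∑ s ∈ range (k + 1), ((k : ℝ) - s) * G' s := by
      rw [Finset.sum_range_succ]; simp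
    have a2 : ∑ s ∈ range k, ((s : ℝ) + 1) * G' (s + 1)
        = ∑ s ∈ range (k + 1), (s : ℝ) * G' s := by
      rw [Finset.sum_range_succ' (fun s => (s : ℝ) * G' s)]; simp
    rw [a1, a2, ← Finset.sum_add_distrib, Finset.mul_sum]
    apply Finset.sum_congr rfl; intro s _; ring
  have key : ((k : ℝ) + 1) * ∑ s ∈ range k, G s - (k : ℝ) * ∑ s ∈ range (k + 1), G' s
      = ∑ s ∈ range k,
          (((k : ℝ) - s) * (G s - G' s) + ((s : ℝ) + 1) * (G s - G' (s + 1))) := by
    rw [← e1, Finset.mul_sum, ← Finset.sum_add_distrib, ← Finset.sum_sub_distrib]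
    apply Finset.sum_congr rfl; intro s _; ring
  have bound : |∑ s ∈ range k,
      (((k : ℝ) - s) * (G s - G' s) + ((s : ℝ) + 1) * (G s - G' (s + 1)))|
      ≤ ∑ s ∈ range k, (((k : ℝ) + 1) * L) := by
    refine le_trans (Finset.abs_sum_le_sum_abs _ _) (Finset.sum_le_sum ?_)
    intro s hs
    have hs' : s < k := Finset.mem_range.1 hs
    have hsR : (s : ℝ) + 1 ≤ k := by exact_mod_cast hs'
    have hs0 : (0 : ℝ) ≤ s := Nat.cast_nonneg s
    have b1 := h1 s hs'
    have b2 := h2 s hs'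
    calc |((k : ℝ) - s) * (G s - G' s) + ((s : ℝ) + 1) * (G s - G' (s + 1))|
        ≤ |((k : ℝ) - s) * (G s - G' s)| + |((s : ℝ) + 1) * (G s - G' (s + 1))| :=
          abs_add_le _ _
      _ = ((k : ℝ) - s) * |G s - G' s| + ((s : ℝ) + 1) * |G s - G' (s + 1)| := by
        rw [abs_mul, abs_mul, abs_of_nonneg (by linarith : (0 : ℝ) ≤ (k : ℝ) - s),
          abs_of_nonneg (by linarith : (0 : ℝ) ≤ (s : ℝ) + 1)]
      _ ≤ ((k : ℝ) - s) * L + ((s : ℝ) + 1) * L := by
        have c1 : ((k : ℝ) - s) * |G s - G' s| ≤ ((k : ℝ) - s) * L :=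
          mul_le_mul_of_nonneg_left b1 (by linarith)
        have c2 : ((s : ℝ) + 1) * |G s - G' (s + 1)| ≤ ((s : ℝ) + 1) * L :=
          mul_le_mul_of_nonneg_left b2 (by linarith)
        linarith
      _ = ((k : ℝ) + 1) * L := by ring
  rw [Finset.sum_const, Finset.card_range, nsmul_eq_mul] at bound
  have e2 : (∑ s ∈ range k, G s) / (k : ℝ) - (∑ s ∈ range (k + 1), G' s) / ((k : ℝ) + 1)
      = (((k : ℝ) + 1) * ∑ s ∈ range k, G s - (k : ℝ) * ∑ s ∈ range (k + 1), G' s)
        / ((k : ℝ) * ((k : ℝ) + 1)) := by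
    field_simp
  have hpos : (0 : ℝ) < (k : ℝ) * ((k : ℝ) + 1) := by positivity
  rw [e2, key, abs_div, abs_of_pos hpos, div_le_iff₀ hpos]
  linarith

theorem interval_same (k : ℕ) (hk : 0 < k) (G G' : ℕ → ℝ) (L : ℝ)
    (h1 : ∀ s, s < k → |G s - G' s| ≤ L) :
    |(∑ s ∈ range k, G s) / (k : ℝ) - (∑ s ∈ range k, G' s) / (k : ℝ)| ≤ L := by
  have hkR : (0 : ℝ) < k := by exact_mod_cast hk
  rw [← sub_div, ← Finset.sum_sub_distrib, abs_div, abs_of_pos hkR, div_le_iff₀ hkR]
  calc |∑ s ∈ range k, (G s - G' s)| ≤ ∑ s ∈ range k, |G s - G' s| :=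
        Finset.abs_sum_le_sum_abs _ _
    _ ≤ ∑ s ∈ range k, L := Finset.sum_le_sum (fun s hs => h1 s (Finset.mem_range.1 hs))
    _ = L * k := by rw [Finset.sum_const, Finset.card_range, nsmul_eq_mul]; ring

/-! ### Sums that differ in two places -/

theorem sum_decomp {ι : Type*} [Fintype ι] [DecidableEq ι] (g : ι → ℕ) (v w : ι) (hvw : v ≠ w) :
    ∑ l, g l = g v + (g w + ∑ l ∈ (univ.erase v).erase w, g l) := by
  rw [← Finset.add_sum_erase univ g (mem_univ v),
    ← Finset.add_sum_erase (univ.erase v) g (Finset.mem_erase.2 ⟨hvw.symm, mem_univ w⟩)]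

theorem sum_rest_eq {ι : Type*} [Fintype ι] [DecidableEq ι] (g h : ι → ℕ) (v w : ι)
    (hout : ∀ l, l ≠ v → l ≠ w → g l = h l) :
    ∑ l ∈ (univ.erase v).erase w, g l = ∑ l ∈ (univ.erase v).erase w, h l := by
  apply Finset.sum_congr rfl
  intro l hl
  rw [Finset.mem_erase, Finset.mem_erase] at hl
  exact hout l hl.2.1 hl.1

theorem sum_eq_of_two {ι : Type*} [Fintype ι] [DecidableEq ι] (g h : ι → ℕ) (v w : ι)
    (hvw : v ≠ w) (hout : ∀ l, l ≠ v → l ≠ w → g l = h l) (hin : g v + g w = h v + h w) :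
    ∑ l, g l = ∑ l, h l := by
  rw [sum_decomp g v w hvw, sum_decomp h v w hvw, sum_rest_eq g h v w hout]
  omega

theorem two_eq_of_sum {ι : Type*} [Fintype ι] [DecidableEq ι] (g h : ι → ℕ) (v w : ι)
    (hvw : v ≠ w) (hout : ∀ l, l ≠ v → l ≠ w → g l = h l) (hsum : ∑ l, g l = ∑ l, h l) :
    g v + g w = h v + h w := by
  rw [sum_decomp g v w hvw, sum_decomp h v w hvw, sum_rest_eq g h v w hout] at hsum
  omega

/-! ### Unit switches and block classes -/

/-- Unit switch in rows `i, j` and columns `u, v`: `Y` is `X` plus one at entry i u and entry j v,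
minus one at entry i v and entry j u. -/
def Sw (i j : Fin m) (u v : Fin n) (X Y : Omega r c) : Prop :=
  Y.1 i u = X.1 i u + 1 ∧ X.1 i v = Y.1 i v + 1 ∧ X.1 j u = Y.1 j u + 1 ∧
    Y.1 j v = X.1 j v + 1 ∧
    ∀ k l, ¬ ((k = i ∨ k = j) ∧ (l = u ∨ l = v)) → X.1 k l = Y.1 k l

theorem sw_symm {i j : Fin m} {u v : Fin n} {X Y : Omega r c} (h : Sw i j u v X Y) :
    Sw i j v u Y X := by
  obtain ⟨h1, h2, h3, h4, h5⟩ := h
  refine ⟨h2, h1, h4, h3, fun k l hkl => (h5 k l (by tauto)).symm⟩

theorem sw_blockRel {i j : Fin m} {u v : Fin n} {X Y : Omega r c} (h : Sw i j u v X Y) :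
    BlockRel i j u v X Y := h.2.2.2.2

theorem blockRel_equiv' (i j : Fin m) (a b : Fin n) :
    Equivalence (BlockRel (r := r) (c := c) i j a b) :=
  ⟨fun _ _ _ _ => rfl, fun h k l hkl => (h k l hkl).symm,
    fun h1 h2 k l hkl => (h1 k l hkl).trans (h2 k l hkl)⟩

theorem blockRel_comm' (i j : Fin m) (a b : Fin n) (X Y : Omega r c) :
    BlockRel i j a b X Y ↔ BlockRel i j b a X Y := by
  constructor
  · intro h k l hkl; exact h k l (by tauto)
  · intro h k l hkl; exact h k l (by tauto)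

theorem block_eqs {i j : Fin m} (hij : i ≠ j) {v w : Fin n} (hvw : v ≠ w) {X Z : Omega r c}
    (h : BlockRel i j v w X Z) :
    Z.1 i v + Z.1 i w = X.1 i v + X.1 i w ∧ Z.1 j v + Z.1 j w = X.1 j v + X.1 j w ∧
    Z.1 i v + Z.1 j v = X.1 i v + X.1 j v ∧ Z.1 i w + Z.1 j w = X.1 i w + X.1 j w := by
  refine ⟨?_, ?_, ?_, ?_⟩
  · exact two_eq_of_sum (fun l => Z.1 i l) (fun l => X.1 i l) v w hvw
      (fun l h1 h2 => (h i l (by tauto)).symm) (by rw [Z.2.1 i, X.2.1 i])
  · exact two_eq_of_sum (fun l => Z.1 j l) (fun l => X.1 j l) v w hvw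
      (fun l h1 h2 => (h j l (by tauto)).symm) (by rw [Z.2.1 j, X.2.1 j])
  · exact two_eq_of_sum (fun k => Z.1 k v) (fun k => X.1 k v) i j hij
      (fun k h1 h2 => (h k v (by tauto)).symm) (by rw [Z.2.2 v, X.2.2 v])
  · exact two_eq_of_sum (fun k => Z.1 k w) (fun k => X.1 k w) i j hij
      (fun k h1 h2 => (h k w (by tauto)).symm) (by rw [Z.2.2 w, X.2.2 w])

/-- The table on the block line of `X` (rows `i, j`, columns `v, w`) with entry `t` at
entry i v, as a raw function. -/
def lineFun (i j : Fin m) (v w : Fin n) (X : Fin m → Fin n → ℕ) (t : ℕ) : Fin m → Fin n → ℕ :=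
  fun k l =>
    if k = i then (if l = v then t else if l = w then X i v + X i w - t else X k l)
    else if k = j then
      (if l = v then X i v + X j v - t else if l = w then X j w + t - X i v else X k l)
    else X k l

theorem lineFun_margins {i j : Fin m} (hij : i ≠ j) {v w : Fin n} (hvw : v ≠ w) (X : Omega r c)
    (t : ℕ) (h1 : X.1 i v ≤ X.1 j w + t) (h2 : t ≤ X.1 i v + X.1 i w)
    (h3 : t ≤ X.1 i v + X.1 j v) :
    (∀ k, ∑ l, lineFun i j v w X.1 t k l = r k) ∧
      (∀ l, ∑ k, lineFun i j v w X.1 t k l = c l) := by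
  constructor
  · intro k
    rw [← X.2.1 k]
    by_cases hki : k = i
    · subst hki
      apply sum_eq_of_two _ _ v w hvw
      · intro l hl1 hl2; simp [lineFun, hl1, hl2]
      · simp only [lineFun, if_true, if_neg hvw.symm]; omega
    · by_cases hkj : k = j
      · subst hkj
        apply sum_eq_of_two _ _ v w hvw
        · intro l hl1 hl2; simp [lineFun, hki, hl1, hl2]
        · simp only [lineFun, if_neg hki, if_true, if_neg hvw.symm]; omega
      · apply Finset.sum_congr rfl; intro l _; simp [lineFun, hki, hkj]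
  · intro l
    rw [← X.2.2 l]
    by_cases hlv : l = v
    · subst hlv
      apply sum_eq_of_two _ _ i j hij
      · intro k hk1 hk2; simp [lineFun, hk1, hk2]
      · simp only [lineFun, if_true, if_neg hij.symm]; omega
    · by_cases hlw : l = w
      · subst hlw
        apply sum_eq_of_two _ _ i j hij
        · intro k hk1 hk2; simp [lineFun, hk1, hk2]
        · simp only [lineFun, if_true, if_neg hij.symm, if_neg hlv]; omega
      · apply Finset.sum_congr rfl; intro k _
        simp only [lineFun, if_neg hlv, if_neg hlw]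
        split_ifs <;> rfl

/-- The table on the block line of `X` with entry `t` at entry i v (equal to `X` when `t` is
out of range). -/
noncomputable def line (i j : Fin m) (v w : Fin n) (X : Omega r c) (t : ℕ) : Omega r c :=
  if h : (∀ k, ∑ l, lineFun i j v w X.1 t k l = r k) ∧
      (∀ l, ∑ k, lineFun i j v w X.1 t k l = c l) then
    (Subtype.mk (lineFun i j v w X.1 t) h : Omega r c) else X

theorem line_val {i j : Fin m} (hij : i ≠ j) {v w : Fin n} (hvw : v ≠ w) (X : Omega r c)
    (t : ℕ) (h1 : X.1 i v ≤ X.1 j w + t) (h2 : t ≤ X.1 i v + X.1 i w)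
    (h3 : t ≤ X.1 i v + X.1 j v) : (line i j v w X t).1 = lineFun i j v w X.1 t := by
  have h := lineFun_margins hij hvw X t h1 h2 h3
  have e : line i j v w X t = (Subtype.mk (lineFun i j v w X.1 t) h : Omega r c) := dif_pos h
  rw [e]

theorem line_spec {i j : Fin m} (hij : i ≠ j) {v w : Fin n} (hvw : v ≠ w) (X : Omega r c)
    (t : ℕ) (h1 : X.1 i v ≤ X.1 j w + t) (h2 : t ≤ X.1 i v + X.1 i w)
    (h3 : t ≤ X.1 i v + X.1 j v) :
    BlockRel i j v w X (line i j v w X t) ∧ (line i j v w X t).1 i v = t := by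
  constructor
  · intro k l hkl
    rw [line_val hij hvw X t h1 h2 h3]
    unfold lineFun
    by_cases hki : k = i
    · have hl : l ≠ v ∧ l ≠ w := by tauto
      simp [hki, hl.1, hl.2]
    · by_cases hkj : k = j
      · have hl : l ≠ v ∧ l ≠ w := by tauto
        simp [hkj, hl.1, hl.2]
      · simp [hki, hkj]
  · rw [line_val hij hvw X t h1 h2 h3]
    simp [lineFun]

theorem line_of_rel {i j : Fin m} (hij : i ≠ j) {v w : Fin n} (hvw : v ≠ w) {X Z : Omega r c}
    (h : BlockRel i j v w X Z) :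
    X.1 i v ≤ X.1 j w + Z.1 i v ∧ Z.1 i v ≤ X.1 i v + X.1 i w ∧
      Z.1 i v ≤ X.1 i v + X.1 j v ∧ line i j v w X (Z.1 i v) = Z := by
  obtain ⟨e1, e2, e3, e4⟩ := block_eqs hij hvw h
  have b1 : X.1 i v ≤ X.1 j w + Z.1 i v := by omega
  have b2 : Z.1 i v ≤ X.1 i v + X.1 i w := by omega
  have b3 : Z.1 i v ≤ X.1 i v + X.1 j v := by omega
  refine ⟨b1, b2, b3, ?_⟩
  apply Subtype.ext
  rw [line_val hij hvw X _ b1 b2 b3]
  funext k l
  unfold lineFun
  by_cases hki : k = i
  · subst hki
    by_cases hlv : l = v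
    · subst hlv; simp
    · by_cases hlw : l = w
      · subst hlw; simp only [if_true, if_neg hlv]; omega
      · simp only [if_true, if_neg hlv, if_neg hlw]; exact h k l (by tauto)
  · by_cases hkj : k = j
    · subst hkj
      by_cases hlv : l = v
      · subst hlv; simp only [if_neg hki, if_true]; omega
      · by_cases hlw : l = w
        · subst hlw; simp only [if_neg hki, if_true, if_neg hlv]; omega
        · simp only [if_neg hki, if_true, if_neg hlv, if_neg hlw]; exact h k l (by tauto)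
    · simp only [if_neg hki, if_neg hkj]; exact h k l (by tauto)

/-- The sum of a function over a block class, as a sum over the interval of parameters. -/
theorem class_sum {i j : Fin m} (hij : i ≠ j) {v w : Fin n} (hvw : v ≠ w) (X : Omega r c)
    (g : Omega r c → ℝ) (p q : ℕ) (hp : p = X.1 i v - X.1 j w)
    (hq : q = min (X.1 i v + X.1 i w) (X.1 i v + X.1 j v) + 1 - p) :
    ∑ Z ∈ univ.filter (fun Z => BlockRel i j v w X Z), g Z
      = ∑ t ∈ Finset.Ico p (p + q), g (line i j v w X t) := by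
  apply Finset.sum_nbij' (fun Z => Z.1 i v) (fun t => line i j v w X t)
  · intro Z hZ
    obtain ⟨b1, b2, b3, -⟩ := line_of_rel hij hvw (Finset.mem_filter.1 hZ).2
    simp only [Finset.mem_Ico]
    omega
  · intro t ht
    rw [Finset.mem_Ico] at ht
    exact Finset.mem_filter.2 ⟨mem_univ _,
      (line_spec hij hvw X t (by omega) (by omega) (by omega)).1⟩
  · intro Z hZ
    exact (line_of_rel hij hvw (Finset.mem_filter.1 hZ).2).2.2.2
  · intro t ht
    rw [Finset.mem_Ico] at ht
    exact (line_spec hij hvw X t (by omega) (by omega) (by omega)).2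
  · intro Z hZ
    rw [(line_of_rel hij hvw (Finset.mem_filter.1 hZ).2).2.2.2]

/-- A block average as an average over the interval of parameters. -/
theorem avg_block {i j : Fin m} (hij : i ≠ j) {v w : Fin n} (hvw : v ≠ w) (X : Omega r c)
    (f : Omega r c → ℝ) (p q : ℕ) (hp : p = X.1 i v - X.1 j w)
    (hq : q = min (X.1 i v + X.1 i w) (X.1 i v + X.1 j v) + 1 - p) :
    avgRel (BlockRel i j v w) f X
      = (∑ s ∈ range q, f (line i j v w X (p + s))) / (q : ℝ) := by
  unfold avgRel
  have hc : ((univ.filter (fun Z => BlockRel i j v w X Z)).card : ℝ) = (q : ℝ) := by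
    have h1 := class_sum hij hvw X (fun _ => (1 : ℝ)) p q hp hq
    rw [Finset.sum_const, Finset.sum_const, Nat.card_Ico, nsmul_eq_mul, nsmul_eq_mul, mul_one,
      mul_one, Nat.add_sub_cancel_left] at h1
    exact h1
  rw [hc, class_sum hij hvw X f p q hp hq, Finset.sum_Ico_eq_sum_range, Nat.add_sub_cancel_left]

/-- Two tables of one block class whose parameters differ by one are a unit switch. -/
theorem sw_of_block_succ {i j : Fin m} (hij : i ≠ j) {u v : Fin n} (huv : u ≠ v)
    {Z Z' : Omega r c} (h : BlockRel i j u v Z Z') (ht : Z'.1 i u = Z.1 i u + 1) :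
    Sw i j u v Z Z' := by
  obtain ⟨e1, e2, e3, e4⟩ := block_eqs hij huv h
  refine ⟨ht, by omega, by omega, by omega, h⟩

/-- Unit switches connect every block class. -/
theorem blockRel_inv_of_sw {α : Type*} {i j : Fin m} (hij : i ≠ j) {u v : Fin n} (huv : u ≠ v)
    (g : Omega r c → α) (hg : ∀ Z Z', Sw i j u v Z Z' → g Z = g Z') :
    ∀ X Y, BlockRel i j u v X Y → g X = g Y := by
  have hE := blockRel_equiv' (r := r) (c := c) i j u v
  have key : ∀ (X : Omega r c) (s : ℕ),
      X.1 i u - X.1 j v + s ≤ min (X.1 i u + X.1 i v) (X.1 i u + X.1 j u) →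
      g (line i j u v X (X.1 i u - X.1 j v + s)) = g (line i j u v X (X.1 i u - X.1 j v)) := by
    intro X s
    induction s with
    | zero => intro _; rfl
    | succ s ih =>
      intro hs
      rw [← ih (by omega)]
      symm
      apply hg
      obtain ⟨r1, r2⟩ := line_spec hij huv X (X.1 i u - X.1 j v + s) (by omega) (by omega)
        (by omega)
      obtain ⟨r1', r2'⟩ := line_spec hij huv X (X.1 i u - X.1 j v + (s + 1)) (by omega)
        (by omega) (by omega)
      apply sw_of_block_succ hij huv (hE.trans (hE.symm r1) r1')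
      rw [r2, r2']; omega
  have key2 : ∀ (X Z : Omega r c), BlockRel i j u v X Z →
      g Z = g (line i j u v X (X.1 i u - X.1 j v)) := by
    intro X Z hZ
    obtain ⟨b1, b2, b3, e⟩ := line_of_rel hij huv hZ
    have h1 := key X (Z.1 i u - (X.1 i u - X.1 j v)) (by omega)
    have h2 : X.1 i u - X.1 j v + (Z.1 i u - (X.1 i u - X.1 j v)) = Z.1 i u := by omega
    rw [h2, e] at h1
    exact h1
  intro X Y hXY
  rw [key2 X X (hE.refl X), key2 X Y hXY]

/-- Relation between the block lines of two tables that differ by a unit switch. -/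
theorem sw_of_param {i j : Fin m} (hij : i ≠ j) {u v w : Fin n} (huv : u ≠ v) (huw : u ≠ w)
    (hvw : v ≠ w) {X Y Z Z' : Omega r c} (hsw : Sw i j u v X Y)
    (hZ : BlockRel i j v w X Z) (hZ' : BlockRel i j v w Y Z') :
    (Z'.1 i v = Z.1 i v → Sw i j u w Z Z') ∧ (Z.1 i v = Z'.1 i v + 1 → Sw i j u v Z Z') := by
  obtain ⟨s1, s2, s3, s4, s5⟩ := hsw
  have hwu : w ≠ u := huw.symm
  have hwv : w ≠ v := hvw.symm
  have hvu : v ≠ u := huv.symm
  obtain ⟨e1, e2, e3, e4⟩ := block_eqs hij hvw hZ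
  obtain ⟨e1', e2', e3', e4'⟩ := block_eqs hij hvw hZ'
  have w1 : X.1 i w = Y.1 i w := s5 i w (by tauto)
  have w2 : X.1 j w = Y.1 j w := s5 j w (by tauto)
  have u1 : X.1 i u = Z.1 i u := hZ i u (by tauto)
  have u2 : X.1 j u = Z.1 j u := hZ j u (by tauto)
  have u1' : Y.1 i u = Z'.1 i u := hZ' i u (by tauto)
  have u2' : Y.1 j u = Z'.1 j u := hZ' j u (by tauto)
  constructor
  · intro ht
    refine ⟨by omega, by omega, by omega, by omega, ?_⟩
    intro k l hkl
    by_cases hb : (k = i ∨ k = j) ∧ (l = v ∨ l = w)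
    · obtain ⟨hk, hl⟩ := hb
      have hlv : l = v := by tauto
      subst hlv
      rcases hk with rfl | rfl
      · omega
      · omega
    · have a1 := hZ k l hb
      have a2 := hZ' k l hb
      have a3 : X.1 k l = Y.1 k l := s5 k l (by tauto)
      omega
  · intro ht
    refine ⟨by omega, by omega, by omega, by omega, ?_⟩
    intro k l hkl
    by_cases hb : (k = i ∨ k = j) ∧ (l = v ∨ l = w)
    · obtain ⟨hk, hl⟩ := hb
      have hlw : l = w := by tauto
      subst hlw
      rcases hk with rfl | rfl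
      · omega
      · omega
    · have a1 := hZ k l hb
      have a2 := hZ' k l hb
      have a3 : X.1 k l = Y.1 k l := s5 k l (by tauto)
      omega

/-- A unit switch in columns `u, v` moves the average over the block `v, w` by at most the
Lipschitz constant along unit switches. -/
theorem avg_switch_le {i j : Fin m} (hij : i ≠ j) {u v w : Fin n} (huv : u ≠ v) (huw : u ≠ w)
    (hvw : v ≠ w) (f : Omega r c → ℝ) (L : ℝ)
    (hL1 : ∀ Z Z', Sw i j u v Z Z' → |f Z - f Z'| ≤ L)
    (hL2 : ∀ Z Z', Sw i j u w Z Z' → |f Z - f Z'| ≤ L)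
    (X Y : Omega r c) (h : Sw i j u v X Y) :
    |avgRel (BlockRel i j v w) f X - avgRel (BlockRel i j v w) f Y| ≤ L := by
  have pair : ∀ t t', X.1 i v ≤ X.1 j w + t → t ≤ X.1 i v + X.1 i w → t ≤ X.1 i v + X.1 j v →
      Y.1 i v ≤ Y.1 j w + t' → t' ≤ Y.1 i v + Y.1 i w → t' ≤ Y.1 i v + Y.1 j v →
      (t' = t ∨ t = t' + 1) →
      |f (line i j v w X t) - f (line i j v w Y t')| ≤ L := by
    intro t t' a1 a2 a3 a1' a2' a3' htt
    obtain ⟨r1, r2⟩ := line_spec hij hvw X t a1 a2 a3
    obtain ⟨r1', r2'⟩ := line_spec hij hvw Y t' a1' a2' a3'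
    obtain ⟨q1, q2⟩ := sw_of_param hij huv huw hvw h r1 r1'
    rcases htt with htt | htt
    · exact hL2 _ _ (q1 (by rw [r2, r2']; exact htt))
    · exact hL1 _ _ (q2 (by rw [r2, r2']; exact htt))
  obtain ⟨s1, s2, s3, s4, s5⟩ := h
  have hwu : w ≠ u := huw.symm
  have hwv : w ≠ v := hvw.symm
  have w1 : X.1 i w = Y.1 i w := s5 i w (by tauto)
  have w2 : X.1 j w = Y.1 j w := s5 j w (by tauto)
  rw [avg_block hij hvw X f _ _ rfl rfl, avg_block hij hvw Y f _ _ rfl rfl]
  by_cases hA : X.1 j w < X.1 i v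
  · by_cases hB : X.1 i w ≤ X.1 j v
    · have eq : min (Y.1 i v + Y.1 i w) (Y.1 i v + Y.1 j v) + 1 - (Y.1 i v - Y.1 j w)
          = min (X.1 i v + X.1 i w) (X.1 i v + X.1 j v) + 1 - (X.1 i v - X.1 j w) := by omega
      rw [eq]
      apply interval_same _ (by omega)
      intro s hs
      apply pair <;> omega
    · have eq : min (Y.1 i v + Y.1 i w) (Y.1 i v + Y.1 j v) + 1 - (Y.1 i v - Y.1 j w)
          = (min (X.1 i v + X.1 i w) (X.1 i v + X.1 j v) + 1 - (X.1 i v - X.1 j w)) + 1 := by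
        omega
      rw [eq]
      push_cast
      apply interval_coupling _ (by omega)
      · intro s hs; apply pair <;> omega
      · intro s hs; apply pair <;> omega
  · by_cases hB : X.1 i w ≤ X.1 j v
    · have eq : min (X.1 i v + X.1 i w) (X.1 i v + X.1 j v) + 1 - (X.1 i v - X.1 j w)
          = (min (Y.1 i v + Y.1 i w) (Y.1 i v + Y.1 j v) + 1 - (Y.1 i v - Y.1 j w)) + 1 := by
        omega
      rw [eq, abs_sub_comm]
      push_cast
      apply interval_coupling _ (by omega)
      · intro s hs; rw [abs_sub_comm]; apply pair <;> omega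
      · intro s hs; rw [abs_sub_comm]; apply pair <;> omega
    · have eq : min (Y.1 i v + Y.1 i w) (Y.1 i v + Y.1 j v) + 1 - (Y.1 i v - Y.1 j w)
          = min (X.1 i v + X.1 i w) (X.1 i v + X.1 j v) + 1 - (X.1 i v - X.1 j w) := by omega
      rw [eq]
      apply interval_same _ (by omega)
      intro s hs
      apply pair <;> omega

/-- Unit-switch pairs inside the `2 x 3` block in rows `i, j` and columns `a, b, d`. -/
def Rho3 (i j : Fin m) (a b d : Fin n) (X Y : Omega r c) : Prop :=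
  ∃ u v : Fin n, (u = a ∨ u = b ∨ u = d) ∧ (v = a ∨ v = b ∨ v = d) ∧ u ≠ v ∧ Sw i j u v X Y

theorem rho3_symm {i j : Fin m} {a b d : Fin n} {X Y : Omega r c} (h : Rho3 i j a b d X Y) :
    Rho3 i j a b d Y X := by
  obtain ⟨u, v, hu, hv, huv, hsw⟩ := h
  exact ⟨v, u, hv, hu, huv.symm, sw_symm hsw⟩

/-- The effect of a unit switch in columns `u, v` on the three block averages. -/
theorem three_avg {i j : Fin m} (hij : i ≠ j) {u v w : Fin n} (huv : u ≠ v) (huw : u ≠ w)
    (hvw : v ≠ w) (f : Omega r c → ℝ) (L : ℝ)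
    (hL : ∀ x y : Fin n, (x = u ∨ x = v ∨ x = w) → (y = u ∨ y = v ∨ y = w) → x ≠ y →
      ∀ Z Z', Sw i j x y Z Z' → |f Z - f Z'| ≤ L)
    (X Y : Omega r c) (h : Sw i j u v X Y) :
    avgRel (BlockRel i j u v) f X = avgRel (BlockRel i j u v) f Y ∧
    |avgRel (BlockRel i j v w) f X - avgRel (BlockRel i j v w) f Y| ≤ L ∧
    |avgRel (BlockRel i j u w) f X - avgRel (BlockRel i j u w) f Y| ≤ L := by
  refine ⟨avgRel_of_rel (blockRel_equiv' i j u v) f (sw_blockRel h), ?_, ?_⟩
  · exact avg_switch_le hij huv huw hvw f L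
      (hL u v (Or.inl rfl) (Or.inr (Or.inl rfl)) huv)
      (hL u w (Or.inl rfl) (Or.inr (Or.inr rfl)) huw) X Y h
  · rw [abs_sub_comm]
    exact avg_switch_le hij huv.symm hvw huw f L
      (hL v u (Or.inr (Or.inl rfl)) (Or.inl rfl) huv.symm)
      (hL v w (Or.inr (Or.inl rfl)) (Or.inr (Or.inr rfl)) hvw) Y X (sw_symm h)

/-- STEP 1: if `f` is `L`-Lipschitz along the unit-switch pairs of a `2 x 3` block, then the
sum of its three block averages is `2 L`-Lipschitz along these pairs. -/
theorem step1 {i j : Fin m} (hij : i ≠ j) {a b d : Fin n} (hab : a ≠ b) (hbd : b ≠ d)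
    (had : a ≠ d) (f : Omega r c → ℝ) (L : ℝ)
    (hL : ∀ X Y, Rho3 i j a b d X Y → |f X - f Y| ≤ L)
    (X Y : Omega r c) (h : Rho3 i j a b d X Y) :
    |(avgRel (BlockRel i j a b) f X + avgRel (BlockRel i j b d) f X
        + avgRel (BlockRel i j d a) f X)
      - (avgRel (BlockRel i j a b) f Y + avgRel (BlockRel i j b d) f Y
        + avgRel (BlockRel i j d a) f Y)| ≤ 2 * L := by
  have cba : avgRel (BlockRel i j b a) f = avgRel (BlockRel i j a b) f :=
    avgRel_congr _ _ (fun X Y => blockRel_comm' i j b a X Y) f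
  have cdb : avgRel (BlockRel i j d b) f = avgRel (BlockRel i j b d) f :=
    avgRel_congr _ _ (fun X Y => blockRel_comm' i j d b X Y) f
  have cad : avgRel (BlockRel i j a d) f = avgRel (BlockRel i j d a) f :=
    avgRel_congr _ _ (fun X Y => blockRel_comm' i j a d X Y) f
  have hba := hab.symm
  have hdb := hbd.symm
  have hda := had.symm
  obtain ⟨u, v, hu, hv, huv, hsw⟩ := h
  have fin : ∀ (A B C A' B' C' : ℝ), A = A' → |B - B'| ≤ L → |C - C'| ≤ L →
      |(A + B + C) - (A' + B' + C')| ≤ 2 * L := by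
    intro A B C A' B' C' e1 e2 e3
    have := abs_le.1 e2
    have := abs_le.1 e3
    rw [abs_le]
    constructor <;> linarith
  rcases hu with rfl | rfl | rfl
  · rcases hv with rfl | rfl | rfl
    · exact absurd rfl huv
    · -- switch in (a, b), third column d
      obtain ⟨e1, e2, e3⟩ := three_avg hij hab had hbd f L
        (fun x y hx hy hxy Z Z' hZ => hL Z Z' ⟨x, y, hx, hy, hxy, hZ⟩) X Y hsw
      rw [cad] at e3
      have := fin _ _ _ _ _ _ e1 e2 e3
      exact this
    · -- switch in (a, d), third column b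
      obtain ⟨e1, e2, e3⟩ := three_avg hij had hab hdb f L
        (fun x y hx hy hxy Z Z' hZ => hL Z Z' ⟨x, y, by tauto, by tauto, hxy, hZ⟩) X Y hsw
      rw [cad] at e1
      rw [cdb] at e2
      have := fin _ _ _ _ _ _ e1 e2 e3
      rw [abs_le] at this ⊢
      constructor <;> linarith [this.1, this.2]
  · rcases hv with rfl | rfl | rfl
    · -- switch in (b, a), third column d
      obtain ⟨e1, e2, e3⟩ := three_avg hij hba hbd had f L
        (fun x y hx hy hxy Z Z' hZ => hL Z Z' ⟨x, y, by tauto, by tauto, hxy, hZ⟩) X Y hsw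
      rw [cba] at e1
      rw [cad] at e2
      have := fin _ _ _ _ _ _ e1 e2 e3
      rw [abs_le] at this ⊢
      constructor <;> linarith [this.1, this.2]
    · exact absurd rfl huv
    · -- switch in (b, d), third column a
      obtain ⟨e1, e2, e3⟩ := three_avg hij hbd hba hda f L
        (fun x y hx hy hxy Z Z' hZ => hL Z Z' ⟨x, y, by tauto, by tauto, hxy, hZ⟩) X Y hsw
      rw [cba] at e3
      have := fin _ _ _ _ _ _ e1 e2 e3
      rw [abs_le] at this ⊢
      constructor <;> linarith [this.1, this.2]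
  · rcases hv with rfl | rfl | rfl
    · -- switch in (d, a), third column b
      obtain ⟨e1, e2, e3⟩ := three_avg hij hda hdb hab f L
        (fun x y hx hy hxy Z Z' hZ => hL Z Z' ⟨x, y, by tauto, by tauto, hxy, hZ⟩) X Y hsw
      rw [cdb] at e3
      have := fin _ _ _ _ _ _ e1 e2 e3
      rw [abs_le] at this ⊢
      constructor <;> linarith [this.1, this.2]
    · -- switch in (d, b), third column a
      obtain ⟨e1, e2, e3⟩ := three_avg hij hdb hda hba f L
        (fun x y hx hy hxy Z Z' hZ => hL Z Z' ⟨x, y, by tauto, by tauto, hxy, hZ⟩) X Y hsw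
      rw [cdb] at e1
      rw [cba] at e2
      have := fin _ _ _ _ _ _ e1 e2 e3
      rw [abs_le] at this ⊢
      constructor <;> linarith [this.1, this.2]
    · exact absurd rfl huv

/-- Invariance along the unit-switch pairs of a `2 x 3` block gives invariance under the
three `2 x 2` block relations. -/
theorem block_inv_of_rho3 {α : Type*} {i j : Fin m} (hij : i ≠ j) {a b d : Fin n} (hab : a ≠ b)
    (hbd : b ≠ d) (had : a ≠ d) (g : Omega r c → α)
    (hg : ∀ X Y, Rho3 i j a b d X Y → g X = g Y) :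
    (∀ X Y, BlockRel i j a b X Y → g X = g Y) ∧ (∀ X Y, BlockRel i j b d X Y → g X = g Y) ∧
      (∀ X Y, BlockRel i j d a X Y → g X = g Y) := by
  refine ⟨?_, ?_, ?_⟩
  · exact blockRel_inv_of_sw hij hab g
      (fun Z Z' hZ => hg Z Z' ⟨a, b, Or.inl rfl, Or.inr (Or.inl rfl), hab, hZ⟩)
  · exact blockRel_inv_of_sw hij hbd g
      (fun Z Z' hZ => hg Z Z' ⟨b, d, Or.inr (Or.inl rfl), Or.inr (Or.inr rfl), hbd, hZ⟩)
  · exact blockRel_inv_of_sw hij had.symm g
      (fun Z Z' hZ => hg Z Z' ⟨d, a, Or.inr (Or.inr rfl), Or.inl rfl, had.symm, hZ⟩)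

end Vale.Agent.H17.CT
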