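import Vale.Agent.H17.CT.Step1
import Vale.Agent.H86.CT.UnitSw

/-!
STEP 1 of the one-dimensional three-column inequality, stated for the unit-switch relation
of `Vale.Agent.H86.CT.UnitSw`.
-/

namespace Vale.Agent.H17.CT

open Finset Vale.Agent.H90 Vale.Agent.H88.CT

variable {m n : ℕ} {r : Fin m → ℕ} {c : Fin n → ℕ}

theorem rho3_iff (i j : Fin m) (a b d : Fin n) (hab : a ≠ b) (hbd : b ≠ d) (had : a ≠ d)
    (X Y : Omega r c) :
    Vale.Agent.H86.CT.Rho3 i j a b d X Y ↔ Rho3 i j a b d X Y := by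
  constructor
  · intro h
    rcases h with h | h | h | h | h | h
    · exact ⟨a, b, Or.inl rfl, Or.inr (Or.inl rfl), hab, h⟩
    · exact ⟨b, a, Or.inr (Or.inl rfl), Or.inl rfl, hab.symm, h⟩
    · exact ⟨b, d, Or.inr (Or.inl rfl), Or.inr (Or.inr rfl), hbd, h⟩
    · exact ⟨d, b, Or.inr (Or.inr rfl), Or.inr (Or.inl rfl), hbd.symm, h⟩
    · exact ⟨d, a, Or.inr (Or.inr rfl), Or.inl rfl, had.symm, h⟩
    · exact ⟨a, d, Or.inl rfl, Or.inr (Or.inr rfl), had, h⟩
  · rintro ⟨u, v, hu, hv, huv, h⟩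
    rcases hu with rfl | rfl | rfl
    · rcases hv with rfl | rfl | rfl
      · exact absurd rfl huv
      · exact Or.inl h
      · exact Or.inr (Or.inr (Or.inr (Or.inr (Or.inr h))))
    · rcases hv with rfl | rfl | rfl
      · exact Or.inr (Or.inl h)
      · exact absurd rfl huv
      · exact Or.inr (Or.inr (Or.inl h))
    · rcases hv with rfl | rfl | rfl
      · exact Or.inr (Or.inr (Or.inr (Or.inr (Or.inl h))))
      · exact Or.inr (Or.inr (Or.inr (Or.inl h)))
      · exact absurd rfl huv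

/-- STEP 1 for the unit-switch pairs of a `2 x 3` block: if `f` is `L`-Lipschitz along them,
the sum of the three block averages of `f` is `2 L`-Lipschitz along them. -/
theorem step1_unitSw (i j : Fin m) (hij : i ≠ j) (a b d : Fin n) (hab : a ≠ b) (hbd : b ≠ d)
    (had : a ≠ d) (f : Omega r c → ℝ) (L : ℝ)
    (hL : ∀ X Y, Vale.Agent.H86.CT.Rho3 i j a b d X Y → |f X - f Y| ≤ L)
    (X Y : Omega r c) (h : Vale.Agent.H86.CT.Rho3 i j a b d X Y) :
    |(avgRel (BlockRel i j a b) f X + avgRel (BlockRel i j b d) f X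
        + avgRel (BlockRel i j d a) f X)
      - (avgRel (BlockRel i j a b) f Y + avgRel (BlockRel i j b d) f Y
        + avgRel (BlockRel i j d a) f Y)| ≤ 2 * L :=
  step1 hij hab hbd had f L
    (fun X Y hXY => hL X Y ((rho3_iff i j a b d hab hbd had X Y).2 hXY)) X Y
    ((rho3_iff i j a b d hab hbd had X Y).1 h)

end Vale.Agent.H17.CT
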